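import Vale.Agent.P002T.K

namespace Vale.Agent.P002

open Matrix

theorem cliff_abs {G H V : Type} [Group G] [AddCommGroup V] [Module ℂ V]
    [FiniteDimensional ℂ V] (T : G →* Module.End ℂ V) (ι : H → G)
    (hn : ∀ h x, ∃ h', ι h * x = x * ι h')
    (hT : ∀ W : Submodule ℂ V, (∀ g, ∀ v ∈ W, T g v ∈ W) →
      ∃ W' : Submodule ℂ V, (∀ g, ∀ v ∈ W', T g v ∈ W') ∧ IsCompl W W')
    (W : Submodule ℂ V) (hW : ∀ h, ∀ v ∈ W, T (ι h) v ∈ W) :
    ∃ W' : Submodule ℂ V, (∀ h, ∀ v ∈ W', T (ι h) v ∈ W') ∧ IsCompl W W' := by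
  let I : Submodule ℂ V → Prop := fun U => ∀ h, ∀ v ∈ U, T (ι h) v ∈ U
  let M : Submodule ℂ V → Prop := fun U => I U ∧ U ≠ ⊥ ∧ ∀ U', I U' → U' ≤ U → U' = ⊥ ∨ U' = U
  have hImap : ∀ U x, I U → I (U.map (T x)) := by
    rintro U x hU h _ ⟨v, hv, rfl⟩
    obtain ⟨h', e⟩ := hn h x
    refine ⟨T (ι h') v, hU h' v hv, ?_⟩
    rw [← Module.End.mul_apply, ← Module.End.mul_apply, ← map_mul, ← map_mul, e]
  have hmm : ∀ (U : Submodule ℂ V) x y, x * y = 1 → (U.map (T y)).map (T x) = U := by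
    intro U x y e
    rw [← Submodule.map_comp, ← Module.End.mul_eq_comp, ← map_mul, e, map_one]
    exact Submodule.map_id U
  have hMmap : ∀ U x, M U → M (U.map (T x)) := by
    rintro U x ⟨h1, h2, h3⟩
    refine ⟨hImap U x h1, fun h => h2 ?_, fun U' a1 a2 => ?_⟩
    · rw [← hmm U x⁻¹ x (inv_mul_cancel x), h, Submodule.map_bot]
    · have a3 : U'.map (T x⁻¹) ≤ U := by
        rw [← hmm U x⁻¹ x (inv_mul_cancel x)]
        exact Submodule.map_mono a2
      rcases h3 _ (hImap U' x⁻¹ a1) a3 with h | h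
      · left
        rw [← hmm U' x x⁻¹ (mul_inv_cancel x), h, Submodule.map_bot]
      · right
        rw [← hmm U' x x⁻¹ (mul_inv_cancel x), h]
  have hex : ∀ U, I U → U ≠ ⊥ → ∃ U', M U' ∧ U' ≤ U := by
    intro U h1 h2
    obtain ⟨U', ⟨a1, a2, a3⟩, hmin⟩ := WellFounded.has_min (wellFounded_lt (α := Submodule ℂ V))
      {U' | I U' ∧ U' ≠ ⊥ ∧ U' ≤ U} ⟨U, h1, h2, le_rfl⟩
    refine ⟨U', ⟨a1, a2, fun U'' b1 b2 => ?_⟩, a3⟩
    by_contra hc
    rw [not_or] at hc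
    exact hmin U'' ⟨b1, hc.1, b2.trans a3⟩ (lt_of_le_of_ne b2 hc.2)
  have hS : sSup {U | M U} = ⊤ := by
    obtain ⟨W', h1, h2⟩ := hT (sSup {U | M U}) (fun g => by
      have : sSup {U | M U} ≤ (sSup {U | M U}).comap (T g) :=
        sSup_le fun U hU => Submodule.map_le_iff_le_comap.1 (le_sSup (hMmap U g hU))
      exact fun v hv => this hv)
    have h3 : W' = ⊥ := by
      by_contra h
      obtain ⟨U, hU, hle⟩ := hex W' (fun h => h1 _) h
      exact hU.2.1 (le_bot_iff.1 (h2.disjoint (le_sSup hU) hle))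
    have h4 := h2.codisjoint
    rw [h3] at h4
    exact codisjoint_bot.1 h4
  have hsup : ∀ U U', I U → I U' → I (U ⊔ U') := by
    intro U U' h1 h2 h v hv
    obtain ⟨a, ha, b, hb, rfl⟩ := Submodule.mem_sup.1 hv
    rw [map_add]
    exact Submodule.add_mem_sup (h1 h a ha) (h2 h b hb)
  obtain ⟨W', ⟨a1, a2⟩, hmax⟩ := WellFounded.has_min (wellFounded_gt (α := Submodule ℂ V))
    {U | I U ∧ Disjoint W U} ⟨⊥, fun h v hv => by
      rw [(Submodule.mem_bot ℂ).1 hv, map_zero]; exact Submodule.zero_mem _, disjoint_bot_right⟩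
  refine ⟨W', a1, a2, codisjoint_iff.2 (top_le_iff.1 ?_)⟩
  rw [← hS]
  refine sSup_le fun U hU => ?_
  have hI : I (U ⊓ (W ⊔ W')) := fun h v hv =>
    ⟨hU.1 h v hv.1, hsup W W' hW a1 h v hv.2⟩
  rcases hU.2.2 _ hI inf_le_left with h | h
  · have hd : Disjoint W (W' ⊔ U) :=
      a2.disjoint_sup_right_of_disjoint_sup_left (disjoint_iff.2 h).symm
    have : W' ⊔ U = W' := by
      by_contra hne
      exact hmax _ ⟨hsup W' U a1 hU.1, hd⟩ (lt_of_le_of_ne le_sup_left (Ne.symm hne))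
    exact (le_sup_right.trans this.le).trans le_sup_right
  · exact h.ge.trans inf_le_right

theorem clifford {Γ Δ : Type} [Group Γ] [Group Δ] {r : ℕ}
    (ρ : Γ × Δ →* SpecialLinearGroup (Fin r) ℂ) (hρ : Semisimple ρ) :
    Semisimple (ρ.comp (MonoidHom.inl Γ Δ)) := by
  let T : Γ × Δ →* Module.End ℂ (Fin r → ℂ) :=
    { toFun := fun x => Matrix.toLin' (ρ x).1
      map_one' := by
        rw [map_one]
        exact Matrix.toLin'_one
      map_mul' := fun x y => by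
        rw [map_mul]
        exact Matrix.toLin'_mul _ _ }
  intro W hW
  exact cliff_abs T (MonoidHom.inl Γ Δ)
    (fun h x => ⟨x.1⁻¹ * h * x.1, by ext <;> simp [mul_assoc]⟩) hρ W hW

end Vale.Agent.P002
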