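import Vale.Agent.P002T.K

namespace Vale.Agent.P002

open Matrix

theorem comm_same {r n : ℕ} {u v : Fin n → ℕ} (e : (Σ κ, Fin (u κ) × Fin (v κ)) ≃ Fin r)
    (a : ∀ κ, Matrix (Fin (u κ)) (Fin (u κ)) ℂ) (κ : Fin n) (s t : Fin (u κ)) (j j' : Fin (v κ)) :
    KA e a (e ⟨κ, (s, j)⟩) (e ⟨κ, (t, j')⟩) = a κ s t * (if j = j' then 1 else 0) := by
  simp [KA, Matrix.one_apply]

theorem comm_ne {r n : ℕ} {u v : Fin n → ℕ} (e : (Σ κ, Fin (u κ) × Fin (v κ)) ≃ Fin r)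
    (a : ∀ κ, Matrix (Fin (u κ)) (Fin (u κ)) ℂ) {κ κ' : Fin n} (h : κ ≠ κ')
    (x : Fin (u κ) × Fin (v κ)) (y : Fin (u κ') × Fin (v κ')) :
    KA e a (e ⟨κ, x⟩) (e ⟨κ', y⟩) = 0 := by
  simp only [KA, reindex_apply, submatrix_apply, Equiv.symm_apply_apply]
  exact blockDiagonal'_apply_ne _ _ _ h

theorem comm_col {r n : ℕ} {u v : Fin n → ℕ} (e : (Σ κ, Fin (u κ) × Fin (v κ)) ≃ Fin r)
    (M : Matrix (Fin r) (Fin r) ℂ) (κ : Fin n) (s t : Fin (u κ)) (j : Fin (v κ)) (i : Fin r) :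
    (M * KA e (Pi.single κ (Matrix.single s t 1))) i (e ⟨κ, (t, j)⟩) = M i (e ⟨κ, (s, j)⟩) := by
  rw [Matrix.mul_apply, ← Equiv.sum_comp e, Finset.sum_eq_single ⟨κ, (s, j)⟩]
  · rw [comm_same]; simp
  · rintro ⟨κ', s', j'⟩ - hne
    by_cases h : κ' = κ
    · subst h
      rw [comm_same]
      by_cases h1 : j' = j
      · subst h1
        have h2 : s ≠ s' := fun h => hne (by rw [h])
        simp [h2]
      · simp [h1]
    · rw [comm_ne e _ h, mul_zero]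
  · simp

theorem comm_row {r n : ℕ} {u v : Fin n → ℕ} (e : (Σ κ, Fin (u κ) × Fin (v κ)) ≃ Fin r)
    (M : Matrix (Fin r) (Fin r) ℂ) (κ : Fin n) (s t s' : Fin (u κ)) (j : Fin (v κ)) (i : Fin r) :
    (KA e (Pi.single κ (Matrix.single s t 1)) * M) (e ⟨κ, (s', j)⟩) i =
      (if s = s' then 1 else 0) * M (e ⟨κ, (t, j)⟩) i := by
  rw [Matrix.mul_apply, ← Equiv.sum_comp e, Finset.sum_eq_single ⟨κ, (t, j)⟩]
  · rw [comm_same]; simp [Matrix.single_apply]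
  · rintro ⟨κ', t', j'⟩ - hne
    by_cases h : κ' = κ
    · subst h
      rw [comm_same]
      by_cases h1 : j = j'
      · subst h1
        have h2 : t ≠ t' := fun h => hne (by rw [h])
        simp [h2]
      · simp [h1]
    · rw [comm_ne e _ (Ne.symm h), zero_mul]
  · simp

theorem comm_row0 {r n : ℕ} {u v : Fin n → ℕ} (e : (Σ κ, Fin (u κ) × Fin (v κ)) ≃ Fin r)
    (M : Matrix (Fin r) (Fin r) ℂ) {κ κ' : Fin n} (h : κ' ≠ κ) (s t : Fin (u κ))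
    (x : Fin (u κ') × Fin (v κ')) (i : Fin r) :
    (KA e (Pi.single κ (Matrix.single s t 1)) * M) (e ⟨κ', x⟩) i = 0 := by
  rw [Matrix.mul_apply, ← Equiv.sum_comp e]
  refine Finset.sum_eq_zero ?_
  rintro ⟨κ2, t', j'⟩ -
  by_cases h2 : κ' = κ2
  · subst h2
    obtain ⟨s1, j1⟩ := x
    rw [comm_same, Pi.single_eq_of_ne h]
    simp
  · rw [comm_ne e _ h2, zero_mul]

theorem commutant {r n : ℕ} {u v : Fin n → ℕ} (hu : ∀ κ, 0 < u κ)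
    (e : (Σ κ, Fin (u κ) × Fin (v κ)) ≃ Fin r) (M : Matrix (Fin r) (Fin r) ℂ)
    (hM : ∀ a, M * KA e a = KA e a * M) : ∃ b, M = KB e b := by
  refine ⟨fun κ => Matrix.of fun j j' => M (e ⟨κ, (⟨0, hu κ⟩, j)⟩) (e ⟨κ, (⟨0, hu κ⟩, j')⟩), ?_⟩
  ext i i'
  obtain ⟨⟨κ1, s1, j1⟩, rfl⟩ := e.surjective i
  obtain ⟨⟨κ2, s2, j2⟩, rfl⟩ := e.surjective i'
  simp only [KB, reindex_apply, submatrix_apply, Equiv.symm_apply_apply]
  by_cases h : κ1 = κ2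
  · subst h
    rw [blockDiagonal'_apply_eq, ← comm_col e M κ1 s2 ⟨0, hu κ1⟩ j2, hM, comm_row]
    simp [Matrix.one_apply, eq_comm]
  · rw [blockDiagonal'_apply_ne _ _ _ h, ← comm_col e M κ2 s2 s2 j2, hM, comm_row0 e M h]

end Vale.Agent.P002
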