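import Vale.Agent.P002T.KAlg
import Vale.Agent.P002.PiF

namespace Vale.Agent.P002

open Matrix

theorem dsl_entry {r n : ℕ} {u v : Fin n → ℕ} (e : (Σ κ, Fin (u κ) × Fin (v κ)) ≃ Fin r)
    (x : Fin r × Fin r) : (∀ a, ent (KA e a) x = 0) ∨
      ∃ κ s t, ∀ a : ∀ κ, Matrix (Fin (u κ)) (Fin (u κ)) ℂ, ent (KA e a) x = a κ s t := by
  simp only [ent, KA, reindex_apply, submatrix_apply]
  generalize e.symm x.1 = p
  generalize e.symm x.2 = q
  obtain ⟨κ, s, j⟩ := p
  obtain ⟨κ', t, j'⟩ := q
  by_cases h : κ = κ'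
  · subst h
    by_cases hj : j = j'
    · subst hj
      exact Or.inr ⟨κ, s, t, fun a => by
        rw [blockDiagonal'_apply_eq, kroneckerMap_apply, one_apply_eq, mul_one]⟩
    · exact Or.inl fun a => by
        rw [blockDiagonal'_apply_eq, kroneckerMap_apply, one_apply_ne hj, mul_zero]
  · exact Or.inl fun a => blockDiagonal'_apply_ne _ _ _ h

theorem dsl_pf {r n : ℕ} {u v : Fin n → ℕ} (e : (Σ κ, Fin (u κ) × Fin (v κ)) ≃ Fin r)
    (a : ∀ κ, Matrix (Fin (u κ)) (Fin (u κ)) ℂ) (k : Fin n) (x : Fin r × Fin r) :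
    (fun y : Fin (u k) × Fin (u k) → ℂ => ent (KA e (Function.update a k (Mx y))) x) ∈
      PF (Fin (u k) × Fin (u k)) := by
  rcases dsl_entry e x with h | ⟨κ, s, t, h⟩
  · simp only [h]
    exact (PF _).algebraMap_mem 0
  · simp only [h]
    by_cases hk : κ = k
    · subst hk
      simp only [Function.update_self]
      exact sl_coord (s, t)
    · simp only [Function.update_of_ne hk]
      exact (PF _).algebraMap_mem (a κ s t)

theorem dens_sl {r n : ℕ} {u v : Fin n → ℕ} (e : (Σ κ, Fin (u κ) × Fin (v κ)) ≃ Fin r)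
    {O : Subring ℂ} {ε : ℂ} (hε : Ar O ε) (g : ∀ κ, Matrix (Fin (u κ)) (Fin (u κ)) ℂ)
    (hg : ∀ κ, (g κ).det = 1) :
    cl {y | (∃ a, Mx y = KA e a) ∧ (Mx y).det = 1 ∧ ∀ x, y x ∈ O} (ent (KA e g)) := by
  intro f hf h0
  have key : ∀ s : Finset (Fin n), ∀ a : ∀ κ, Matrix (Fin (u κ)) (Fin (u κ)) ℂ,
      (∀ κ, κ ∉ s → (a κ).det = 1 ∧ ∀ i j, a κ i j ∈ O) → (∀ κ ∈ s, a κ = g κ) →
        f (ent (KA e a)) = 0 := by
    intro s
    induction s using Finset.induction_on with
    | empty =>
      intro a h1 _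
      refine h0 _ ⟨⟨a, rfl⟩, ?_, fun x => ?_⟩
      · rw [Mx_ent, det_KA]
        exact Finset.prod_eq_one fun κ _ => by rw [(h1 κ (Finset.notMem_empty κ)).1, one_pow]
      · rcases dsl_entry e x with h | ⟨κ, s, t, h⟩
        · rw [h]
          exact O.zero_mem
        · rw [h]
          exact (h1 κ (Finset.notMem_empty κ)).2 s t
    | insert k s hk ih =>
      intro a h1 h2
      have h3 := sl_dense (fun _ : Fin (u k) => ()) hε (A := g k)
        ⟨hg k, fun i j h => absurd rfl h⟩ _
        (sl_comp (fun y => ent (KA e (Function.update a k (Mx y)))) (dsl_pf e a k) hf)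
        fun y hy => by
          refine ih _ (fun b hb => ?_) (fun b hb => ?_)
          · by_cases hbk : b = k
            · subst hbk
              rw [Function.update_self]
              exact ⟨hy.1.1, fun i j => hy.2 (i, j)⟩
            · rw [Function.update_of_ne hbk]
              exact h1 b (by simp [hbk, hb])
          · have hbk : b ≠ k := fun h => hk (h ▸ hb)
            rw [Function.update_of_ne hbk]
            exact h2 b (Finset.mem_insert_of_mem hb)
      rw [Mx_ent, ← h2 k (Finset.mem_insert_self k s), Function.update_eq_self] at h3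
      exact h3
  exact key Finset.univ g (fun a ha => absurd (Finset.mem_univ a) ha) fun _ _ => rfl

end Vale.Agent.P002
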