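import Vale.Agent.P002T.DScal
import Vale.Agent.P002T.DSL

namespace Vale.Agent.P002

open Matrix

theorem dka_root (m : ℕ) (A : Matrix (Fin m) (Fin m) ℂ) (hA : A.det ≠ 0) :
    ∃ s : ℂ, s ≠ 0 ∧ (s⁻¹ • A).det = 1 := by
  rcases Nat.eq_zero_or_pos m with rfl | hm
  · exact ⟨1, one_ne_zero, det_isEmpty⟩
  · obtain ⟨s, hs⟩ := IsAlgClosed.exists_pow_nat_eq A.det hm
    have hs0 : s ≠ 0 := by
      rintro rfl
      rw [zero_pow hm.ne'] at hs
      exact hA hs.symm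
    refine ⟨s, hs0, ?_⟩
    rw [det_smul, Fintype.card_fin, inv_pow, hs, inv_mul_cancel₀ hA]

theorem dens_KA {r n : ℕ} {u v : Fin n → ℕ} (e : (Σ κ, Fin (u κ) × Fin (v κ)) ≃ Fin r)
    {O : Subring ℂ} {ε : ℂ} (hε : Ar O ε) (hO : ∀ x : ℂ, x ^ (r.factorial) = 1 → x ∈ O)
    (a : ∀ κ, Matrix (Fin (u κ)) (Fin (u κ)) ℂ) (ha : (KA e a).det = 1) :
    cl {y | (∃ a, Mx y = KA e a) ∧ (Mx y).det = 1 ∧ ∀ x, y x ∈ O} (ent (KA e a)) := by
  obtain ⟨a', h1, h2⟩ : ∃ a' : ∀ κ, Matrix (Fin (u κ)) (Fin (u κ)) ℂ,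
      KA e a = KA e a' ∧ ∀ κ, (a' κ).det ≠ 0 := by
    refine ⟨fun κ => if v κ = 0 then 1 else a κ, ?_, fun κ => ?_⟩
    · unfold KA
      refine congrArg (fun b => reindex e e (blockDiagonal' b)) (funext fun κ => ?_)
      by_cases h : v κ = 0
      · ext i j
        exact absurd i.2.pos (by omega)
      · simp only [if_neg h]
    · by_cases h : v κ = 0
      · simp only [if_pos h, det_one]
        exact one_ne_zero
      · simp only [if_neg h]
        rw [det_KA] at ha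
        have := Finset.prod_ne_zero_iff.1 (ha ▸ one_ne_zero : ∏ κ, (a κ).det ^ v κ ≠ 0) κ
          (Finset.mem_univ κ)
        exact fun h0 => this (by rw [h0, zero_pow h])
  choose s hs0 hs using fun κ => dka_root (u κ) (a' κ) (h2 κ)
  set g : ∀ κ, Matrix (Fin (u κ)) (Fin (u κ)) ℂ := fun κ => (s κ)⁻¹ • a' κ with hg
  have hprod : a' = (fun κ => s κ • (1 : Matrix (Fin (u κ)) (Fin (u κ)) ℂ)) * g := by
    funext κ
    simp only [Pi.mul_apply, hg, smul_mul_assoc, one_mul, smul_smul,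
      mul_inv_cancel₀ (hs0 κ), one_smul]
  have hdg : (KA e g).det = 1 := by
    rw [det_KA]
    exact Finset.prod_eq_one fun κ _ => by rw [hs κ, one_pow]
  rw [h1, hprod, KA_mul] at ha
  rw [det_mul, hdg, mul_one] at ha
  have hQA := dens_scal e hε hO s hs0 ha
  have hQB := dens_sl e hε g hs
  rw [h1, hprod, KA_mul]
  intro f hf h0
  refine hQA (fun y => f (ent (Mx y * KA e g))) (sl_comp _ (sl_right _) hf) fun x hx => ?_
  refine hQB (fun y => f (ent (Mx x * Mx y))) (sl_comp _ (sl_left (Mx x)) hf) fun y hy => ?_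
  obtain ⟨⟨b, hb⟩, hx1, hx2⟩ := hx
  obtain ⟨⟨b', hb'⟩, hy1, hy2⟩ := hy
  refine h0 _ ⟨⟨b * b', by rw [Mx_ent, KA_mul, hb, hb']⟩,
    by rw [Mx_ent, det_mul, hx1, hy1, one_mul], fun p => ?_⟩
  show (Mx x * Mx y) p.1 p.2 ∈ O
  rw [Matrix.mul_apply]
  exact Subring.sum_mem _ fun k _ => O.mul_mem (hx2 _) (hy2 _)

end Vale.Agent.P002
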