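import Vale.Agent.P002T.KAlg

namespace Vale.Agent.P002

open Matrix

theorem ds_KA {r n : ℕ} {u v : Fin n → ℕ} (e : (Σ κ, Fin (u κ) × Fin (v κ)) ≃ Fin r)
    (t : Fin n → ℂ) : (KA e fun κ => t κ • 1) = diagonal fun i => t (e.symm i).1 := by
  ext i j
  obtain ⟨⟨k, p⟩, rfl⟩ := e.surjective i
  obtain ⟨⟨k', p'⟩, rfl⟩ := e.surjective j
  simp only [KA, reindex_apply, submatrix_apply, Equiv.symm_apply_apply, diagonal_apply,
    EmbeddingLike.apply_eq_iff_eq]
  by_cases h : k = k'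
  · subst h
    rw [blockDiagonal'_apply_eq, kroneckerMap_apply]
    obtain ⟨p1, p2⟩ := p
    obtain ⟨q1, q2⟩ := p'
    by_cases h1 : p1 = q1 <;> by_cases h2 : p2 = q2 <;> simp [one_apply, h1, h2]
  · rw [blockDiagonal'_apply_ne _ _ _ h, if_neg fun h' => h (congrArg Sigma.fst h')]

theorem ds_pt {r n : ℕ} (col : Fin r → Fin n) (c : ℂ) (t : Fin n → ℂ) (ht : ∀ b, t b ≠ 0) :
    (fun p : Fin r × Fin r => (if p.1 = p.2 then c else 0) * ∏ b, t b ^
      ((if b = col p.1 then (r : ℤ) else 0) - ((Finset.univ.filter fun i => col i = b).card : ℕ))) =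
    ent (diagonal fun i => c * t (col i) ^ r * (∏ i', t (col i'))⁻¹) := by
  funext p
  have h1 : ∏ b, t b ^ ((if b = col p.1 then (r : ℤ) else 0) -
      ((Finset.univ.filter fun i => col i = b).card : ℕ)) =
      t (col p.1) ^ r * (∏ i', t (col i'))⁻¹ := by
    rw [Finset.prod_congr rfl fun b _ => zpow_sub₀ (ht b) _ _, Finset.prod_div_distrib,
      div_eq_mul_inv]
    congr 1
    · rw [Finset.prod_eq_single (col p.1) (fun b _ hb => by simp [hb]) (by simp)]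
      simp
    · rw [← Finset.prod_fiberwise' Finset.univ col t]
      simp
  rw [h1]
  simp only [ent, diagonal_apply]
  split_ifs
  · rw [mul_assoc]
  · rw [zero_mul]

theorem dens_scal {r n : ℕ} {u v : Fin n → ℕ} (e : (Σ κ, Fin (u κ) × Fin (v κ)) ≃ Fin r)
    {O : Subring ℂ} {ε : ℂ} (hε : Ar O ε) (hO : ∀ x : ℂ, x ^ (r.factorial) = 1 → x ∈ O)
    (s : Fin n → ℂ) (hs0 : ∀ κ, s κ ≠ 0) (hs : (KA e fun κ => s κ • 1).det = 1) :
    cl {y | (∃ a, Mx y = KA e a) ∧ (Mx y).det = 1 ∧ ∀ x, y x ∈ O}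
      (ent (KA e fun κ => s κ • 1)) := by
  rcases Nat.eq_zero_or_pos r with rfl | hr
  · exact fun f _ h0 => h0 _ ⟨⟨_, Mx_ent _⟩, hs, fun x => x.1.elim0⟩
  have hx : ∀ κ, ∃ x : ℂ, x ^ r = s κ := fun κ => IsAlgClosed.exists_pow_nat_eq (s κ) hr
  choose x hx using hx
  have hx0 : ∀ κ, x κ ≠ 0 := fun κ h => hs0 κ (by rw [← hx, h, zero_pow hr.ne'])
  have hP : ∀ t : Fin n → ℂ, (∀ b, t b ≠ 0) → ∏ i, t (e.symm i).1 ≠ 0 := fun t ht =>
    Finset.prod_ne_zero_iff.2 fun i _ => ht _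
  have hc : (∏ i, x (e.symm i).1) ^ r = 1 := by
    rw [ds_KA, det_diagonal] at hs
    rw [← Finset.prod_pow, ← hs]
    exact Finset.prod_congr rfl fun i _ => hx _
  have hcO : ∏ i, x (e.symm i).1 ∈ O := hO _ (by
    obtain ⟨k, hk⟩ := Nat.dvd_factorial hr le_rfl
    rw [hk, pow_mul, hc, one_pow])
  have hε0 : ε ≠ 0 := by
    rintro rfl
    have := hε.lt
    rw [norm_zero] at this
    linarith
  have h := grid (fun p : Fin r × Fin r => if p.1 = p.2 then ∏ i, x (e.symm i).1 else 0)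
    (fun p b => (if b = (e.symm p.1).1 then (r : ℤ) else 0) -
      ((Finset.univ.filter fun i => (e.symm i).1 = b).card : ℕ)) hε.lt x hx0
  rw [ds_pt (fun i => (e.symm i).1) _ x hx0] at h
  have e1 : (diagonal fun i => (∏ i, x (e.symm i).1) * x (e.symm i).1 ^ r *
      (∏ i', x (e.symm i').1)⁻¹) = KA e fun κ => s κ • 1 := by
    rw [ds_KA]
    congr 1
    funext i
    rw [mul_right_comm, mul_inv_cancel₀ (hP x hx0), one_mul, hx]
  rw [e1] at h
  refine cl_mono ?_ h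
  rintro _ ⟨m, rfl⟩
  have hm : ∀ b, ε ^ m b ≠ 0 := fun b => pow_ne_zero _ hε0
  rw [ds_pt (fun i => (e.symm i).1) _ (fun b => ε ^ m b) hm]
  refine ⟨⟨_, (ds_KA e fun κ => (∏ i, x (e.symm i).1) * (ε ^ m κ) ^ r *
    (∏ i', ε ^ m (e.symm i').1)⁻¹).symm⟩, ?_, fun p => ?_⟩
  · rw [Mx_ent, det_diagonal, Finset.prod_mul_distrib, Finset.prod_mul_distrib, Finset.prod_pow]
    simp only [Finset.prod_const, Finset.card_univ, Fintype.card_fin]
    rw [hc, one_mul, ← mul_pow, mul_inv_cancel₀ (hP _ hm), one_pow]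
  · simp only [ent, diagonal_apply]
    split_ifs
    · refine O.mul_mem (O.mul_mem hcO (O.pow_mem (O.pow_mem hε.mem _) _)) ?_
      rw [← Finset.prod_inv_distrib]
      exact O.prod_mem fun i _ => by rw [← inv_pow]; exact O.pow_mem hε.inv _
    · exact O.zero_mem

end Vale.Agent.P002
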