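import Vale.Agent.P002.Defs

namespace Vale.Agent.P002

/-- The standard generators of a product of two free groups. -/
def gen {a b : ℕ} : Fin a ⊕ Fin b → FreeGroup (Fin a) × FreeGroup (Fin b)
  | Sum.inl i => (FreeGroup.of i, 1)
  | Sum.inr j => (1, FreeGroup.of j)

end Vale.Agent.P002
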