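import Vale.Agent.P002.SL

namespace Vale.Agent.P002

open Matrix
open scoped Kronecker

/-- Block sum of `a κ ⊗ 1`. -/
noncomputable def KA {r n : ℕ} {u v : Fin n → ℕ} (e : (Σ κ, Fin (u κ) × Fin (v κ)) ≃ Fin r)
    (a : ∀ κ, Matrix (Fin (u κ)) (Fin (u κ)) ℂ) : Matrix (Fin r) (Fin r) ℂ :=
  reindex e e (blockDiagonal' fun κ => a κ ⊗ₖ (1 : Matrix (Fin (v κ)) (Fin (v κ)) ℂ))

/-- Block sum of `1 ⊗ b κ`. -/
noncomputable def KB {r n : ℕ} {u v : Fin n → ℕ} (e : (Σ κ, Fin (u κ) × Fin (v κ)) ≃ Fin r)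
    (b : ∀ κ, Matrix (Fin (v κ)) (Fin (v κ)) ℂ) : Matrix (Fin r) (Fin r) ℂ :=
  reindex e e (blockDiagonal' fun κ => (1 : Matrix (Fin (u κ)) (Fin (u κ)) ℂ) ⊗ₖ b κ)

end Vale.Agent.P002
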