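import Vale.Agent.P002T.K

namespace Vale.Agent.P002

open Matrix
open scoped Kronecker

theorem kalg_mul {r n : ℕ} {m : Fin n → Type} [∀ κ, Fintype (m κ)] (e : (Σ κ, m κ) ≃ Fin r)
    (M N : ∀ κ, Matrix (m κ) (m κ) ℂ) :
    reindex e e (blockDiagonal' M) * reindex e e (blockDiagonal' N) =
      reindex e e (blockDiagonal' fun κ => M κ * N κ) := by
  rw [reindex_apply, reindex_apply, reindex_apply, submatrix_mul_equiv, blockDiagonal'_mul]

theorem kalg_det {n : ℕ} {m : Fin n → Type} [∀ κ, Fintype (m κ)] [∀ κ, DecidableEq (m κ)]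
    (M : ∀ κ, Matrix (m κ) (m κ) ℂ) : (blockDiagonal' M).det = ∏ κ, (M κ).det := by
  have hb : (blockDiagonal' M).BlockTriangular Sigma.fst := by
    rintro ⟨k, i⟩ ⟨k', j⟩ h
    exact blockDiagonal'_apply_ne M i j (ne_of_gt h)
  rw [hb.det_fintype]
  refine Finset.prod_congr rfl fun κ _ => ?_
  let f : m κ ≃ {x : Σ κ, m κ // x.1 = κ} :=
    { toFun := fun i => ⟨⟨κ, i⟩, rfl⟩
      invFun := fun x => x.2 ▸ x.1.2
      left_inv := fun _ => rfl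
      right_inv := by
        rintro ⟨⟨k, i⟩, rfl⟩
        rfl }
  rw [← det_submatrix_equiv_self f]
  congr 1
  ext i j
  exact blockDiagonal'_apply_eq M κ i j

theorem KA_mul {r n : ℕ} {u v : Fin n → ℕ} (e : (Σ κ, Fin (u κ) × Fin (v κ)) ≃ Fin r)
    (a a' : ∀ κ, Matrix (Fin (u κ)) (Fin (u κ)) ℂ) : KA e (a * a') = KA e a * KA e a' := by
  rw [KA, KA, KA, kalg_mul]
  congr 2
  funext κ
  rw [← mul_kronecker_mul, Matrix.mul_one, Pi.mul_apply]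

theorem KA_KB {r n : ℕ} {u v : Fin n → ℕ} (e : (Σ κ, Fin (u κ) × Fin (v κ)) ≃ Fin r)
    (a : ∀ κ, Matrix (Fin (u κ)) (Fin (u κ)) ℂ) (b : ∀ κ, Matrix (Fin (v κ)) (Fin (v κ)) ℂ) :
    KA e a * KB e b = KB e b * KA e a := by
  rw [KA, KB, kalg_mul, kalg_mul]
  congr 2
  funext κ
  rw [← mul_kronecker_mul, ← mul_kronecker_mul, Matrix.mul_one, Matrix.mul_one, Matrix.one_mul,
    Matrix.one_mul]

theorem KB_eq {r n : ℕ} {u v : Fin n → ℕ} (e : (Σ κ, Fin (u κ) × Fin (v κ)) ≃ Fin r) :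
    ∃ e' : (Σ κ, Fin (v κ) × Fin (u κ)) ≃ Fin r, ∀ b, KB e b = KA e' b := by
  refine ⟨(Equiv.sigmaCongrRight fun k => Equiv.prodComm _ _).trans e, fun b => ?_⟩
  ext x y
  obtain ⟨⟨k, i, j⟩, rfl⟩ := e.surjective x
  obtain ⟨⟨k', i', j'⟩, rfl⟩ := e.surjective y
  simp only [KA, KB, reindex_apply, submatrix_apply, Equiv.symm_trans_apply,
    Equiv.symm_apply_apply]
  show blockDiagonal' (fun κ => (1 : Matrix (Fin (u κ)) (Fin (u κ)) ℂ) ⊗ₖ b κ)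
      ⟨k, (i, j)⟩ ⟨k', (i', j')⟩ =
    blockDiagonal' (fun κ => b κ ⊗ₖ (1 : Matrix (Fin (u κ)) (Fin (u κ)) ℂ))
      ⟨k, (j, i)⟩ ⟨k', (j', i')⟩
  by_cases h : k = k'
  · subst h
    rw [blockDiagonal'_apply_eq, blockDiagonal'_apply_eq, kroneckerMap_apply, kroneckerMap_apply,
      mul_comm]
  · rw [blockDiagonal'_apply_ne _ _ _ h, blockDiagonal'_apply_ne _ _ _ h]

theorem det_KA {r n : ℕ} {u v : Fin n → ℕ} (e : (Σ κ, Fin (u κ) × Fin (v κ)) ≃ Fin r)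
    (a : ∀ κ, Matrix (Fin (u κ)) (Fin (u κ)) ℂ) : (KA e a).det = ∏ κ, (a κ).det ^ v κ := by
  rw [KA, det_reindex_self, kalg_det]
  refine Finset.prod_congr rfl fun κ _ => ?_
  rw [det_kronecker, det_one, one_pow, mul_one, Fintype.card_fin]

end Vale.Agent.P002
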