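import Vale.Agent.P002T.K

namespace Vale.Agent.P002

open Matrix

theorem std_basis {r n : ℕ} {u : Fin n → ℕ} (z : ∀ κ, Fin (u κ))
    (E : ∀ κ, Fin (u κ) → Fin (u κ) → Matrix (Fin r) (Fin r) ℂ)
    (hEE : ∀ κ s t t', E κ s t * E κ t t' = E κ s t')
    (hE0 : ∀ κ s t s' t', t ≠ s' → E κ s t * E κ s' t' = 0)
    (hE1 : ∀ κ κ' s t s' t', κ' ≠ κ → E κ s t * E κ' s' t' = 0)
    (hsum : ∑ κ, ∑ s, E κ s s = 1) :
    ∃ (v : Fin n → ℕ) (w : ∀ κ, Fin (v κ) → (Fin r → ℂ)),
      LinearIndependent ℂ (fun x : (Σ κ, Fin (u κ) × Fin (v κ)) =>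
        E x.1 x.2.1 (z x.1) *ᵥ w x.1 x.2.2) ∧
      ⊤ ≤ Submodule.span ℂ (Set.range (fun x : (Σ κ, Fin (u κ) × Fin (v κ)) =>
        E x.1 x.2.1 (z x.1) *ᵥ w x.1 x.2.2)) := by
  classical
  let W : Fin n → Submodule ℂ (Fin r → ℂ) := fun κ =>
    LinearMap.range (Matrix.toLin' (E κ (z κ) (z κ)))
  let b := fun κ => Module.finBasis ℂ (W κ)
  have hfix : ∀ κ (y : W κ), E κ (z κ) (z κ) *ᵥ (y : Fin r → ℂ) = y := by
    rintro κ ⟨y, x, rfl⟩
    simp only [Matrix.toLin'_apply, Matrix.mulVec_mulVec, hEE]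
  refine ⟨fun κ => Module.finrank ℂ (W κ), fun κ j => (b κ j : Fin r → ℂ), ?_, ?_⟩
  · rw [Fintype.linearIndependent_iff]
    rintro g hg ⟨κ, s, j⟩
    have h1 := congrArg (fun y => E κ (z κ) s *ᵥ y) hg
    simp only [Matrix.mulVec_sum, Matrix.mulVec_smul, Matrix.mulVec_mulVec,
      Matrix.mulVec_zero] at h1
    rw [Fintype.sum_sigma, Finset.sum_eq_single κ, Fintype.sum_prod_type,
      Finset.sum_eq_single s] at h1
    · simp only [hEE, hfix] at h1
      have hl : LinearIndependent ℂ (fun j => (b κ j : Fin r → ℂ)) :=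
        (b κ).linearIndependent.map' (W κ).subtype (Submodule.ker_subtype _)
      exact Fintype.linearIndependent_iff.1 hl (fun j => g ⟨κ, s, j⟩) h1 j
    · intro s' _ hs'
      refine Finset.sum_eq_zero fun j _ => ?_
      rw [hE0 _ _ _ _ _ (Ne.symm hs'), Matrix.zero_mulVec, smul_zero]
    · simp
    · intro κ' _ hκ'
      refine Finset.sum_eq_zero fun y _ => ?_
      rw [hE1 _ _ _ _ _ _ hκ', Matrix.zero_mulVec, smul_zero]
    · simp
  · intro x _
    have hx : x = ∑ κ, ∑ s, E κ s s *ᵥ x := by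
      conv_lhs => rw [← Matrix.one_mulVec x, ← hsum]
      simp only [Matrix.sum_mulVec]
    rw [hx]
    refine Submodule.sum_mem _ fun κ _ => Submodule.sum_mem _ fun s _ => ?_
    have hy : E κ (z κ) s *ᵥ x ∈ W κ :=
      ⟨E κ (z κ) s *ᵥ x, by simp only [Matrix.toLin'_apply, Matrix.mulVec_mulVec, hEE]⟩
    have h2 : E κ (z κ) s *ᵥ x = ∑ j, (b κ).repr ⟨_, hy⟩ j • (b κ j : Fin r → ℂ) := by
      have := congrArg Subtype.val ((b κ).sum_repr ⟨_, hy⟩)
      simp only [AddSubmonoidClass.coe_finset_sum, SetLike.val_smul] at this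
      exact this.symm
    have h3 : E κ s s *ᵥ x = E κ s (z κ) *ᵥ (E κ (z κ) s *ᵥ x) := by
      rw [Matrix.mulVec_mulVec, hEE]
    rw [h3, h2, Matrix.mulVec_sum]
    refine Submodule.sum_mem _ fun j _ => ?_
    rw [Matrix.mulVec_smul]
    exact Submodule.smul_mem _ _ (Submodule.subset_span ⟨⟨κ, s, j⟩, rfl⟩)

theorem stdform {r n : ℕ} {u : Fin n → ℕ} (hu : ∀ κ, 0 < u κ)
    (φ : (∀ κ : Fin n, Matrix (Fin (u κ)) (Fin (u κ)) ℂ) →ₐ[ℂ] Matrix (Fin r) (Fin r) ℂ) :
    ∃ (v : Fin n → ℕ) (e : (Σ κ, Fin (u κ) × Fin (v κ)) ≃ Fin r) (P : Matrix (Fin r) (Fin r) ℂ),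
      P.det = 1 ∧ ∀ a, φ a = P * KA e a * P.adjugate := by
  classical
  let z : ∀ κ, Fin (u κ) := fun κ => ⟨0, hu κ⟩
  let E : ∀ κ, Fin (u κ) → Fin (u κ) → Matrix (Fin r) (Fin r) ℂ := fun κ s t =>
    φ (Pi.single κ (Matrix.single s t 1))
  have hEE : ∀ κ s t t', E κ s t * E κ t t' = E κ s t' := by
    intro κ s t t'
    simp only [E]
    rw [← map_mul, ← Pi.single_mul, Matrix.single_mul_single_same, one_mul]
  have hE0 : ∀ κ s t s' t', t ≠ s' → E κ s t * E κ s' t' = 0 := by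
    intro κ s t s' t' h
    simp only [E]
    rw [← map_mul, ← Pi.single_mul, Matrix.single_mul_single_of_ne _ _ _ _ h, Pi.single_zero,
      map_zero]
  have hE1 : ∀ κ κ' s t s' t', κ' ≠ κ → E κ s t * E κ' s' t' = 0 := by
    intro κ κ' s t s' t' h
    simp only [E]
    rw [← map_mul]
    have : (Pi.single κ (Matrix.single s t 1) * Pi.single κ' (Matrix.single s' t' 1) :
        ∀ κ : Fin n, Matrix (Fin (u κ)) (Fin (u κ)) ℂ) = 0 := by
      funext k
      by_cases hk : k = κ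
      · subst hk
        simp [Pi.single_eq_of_ne (Ne.symm h)]
      · simp [Pi.single_eq_of_ne hk]
    rw [this, map_zero]
  have hsum : ∑ κ, ∑ s, E κ s s = 1 := by
    simp only [E]
    simp only [← map_sum]
    rw [← map_one φ]
    congr 1
    funext k
    rw [Finset.sum_apply, Finset.sum_eq_single k]
    · rw [Finset.sum_apply]
      simp only [Pi.single_eq_same, Pi.one_apply]
      ext i j
      simp only [Matrix.sum_apply, Matrix.single_apply, Matrix.one_apply]
      by_cases hij : i = j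
      · subst hij
        simp
      · rw [if_neg hij]
        refine Finset.sum_eq_zero fun s _ => if_neg ?_
        rintro ⟨rfl, rfl⟩
        exact hij rfl
    · intro κ' _ hκ'
      rw [Finset.sum_apply]
      exact Finset.sum_eq_zero fun s _ => Pi.single_eq_of_ne (Ne.symm hκ') _
    · simp
  have hφ : ∀ a κ s t, φ a * E κ s t = ∑ s', a κ s' s • E κ s' t := by
    intro a κ s t
    simp only [E]
    simp only [← map_smul, ← map_sum, ← map_mul]
    congr 1
    funext k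
    rw [Finset.sum_apply, Pi.mul_apply]
    by_cases hk : k = κ
    · subst hk
      simp only [Pi.smul_apply, Pi.single_eq_same]
      ext i j
      simp only [Matrix.mul_apply, Matrix.sum_apply, Matrix.smul_apply, Matrix.single_apply,
        smul_eq_mul]
      by_cases hj : t = j
      · subst hj
        simp
      · simp [hj]
    · simp [Pi.single_eq_of_ne hk]
  obtain ⟨v, w, hli, hsp⟩ := std_basis z E hEE hE0 hE1 hsum
  let B := Module.Basis.mk hli hsp
  let e : (Σ κ, Fin (u κ) × Fin (v κ)) ≃ Fin r := B.indexEquiv (Pi.basisFun ℂ (Fin r))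
  let f := fun x : (Σ κ, Fin (u κ) × Fin (v κ)) => E x.1 x.2.1 (z x.1) *ᵥ w x.1 x.2.2
  have hli' : LinearIndependent ℂ (fun j : Fin r => f (e.symm j)) :=
    hli.comp e.symm e.symm.injective
  let g₀ : Matrix (Fin r) (Fin r) ℂ := Matrix.of fun i j => f (e.symm j) i
  have hU : IsUnit g₀ := Matrix.linearIndependent_cols_iff_isUnit.1 hli'
  have hdet : g₀.det ≠ 0 := ((Matrix.isUnit_iff_isUnit_det g₀).1 hU).ne_zero
  have hXg : ∀ a, φ a * g₀ = g₀ * KA e a := by
    intro a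
    ext i j
    obtain ⟨⟨κ, s, t⟩, rfl⟩ := e.surjective j
    have hL : (φ a * g₀) i (e ⟨κ, s, t⟩) = (φ a *ᵥ f ⟨κ, s, t⟩) i := by
      simp only [Matrix.mul_apply, g₀, Matrix.of_apply, Equiv.symm_apply_apply, Matrix.mulVec,
        dotProduct]
    have hR : (g₀ * KA e a) i (e ⟨κ, s, t⟩) = ∑ s', f ⟨κ, s', t⟩ i * a κ s' s := by
      rw [Matrix.mul_apply, ← e.sum_comp]
      simp only [g₀, KA, Matrix.of_apply, Matrix.reindex_apply, Matrix.submatrix_apply,
        Equiv.symm_apply_apply]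
      rw [Fintype.sum_sigma, Finset.sum_eq_single κ, Fintype.sum_prod_type]
      · refine Finset.sum_congr rfl fun s' _ => ?_
        rw [Finset.sum_eq_single t]
        · simp [Matrix.blockDiagonal'_apply_eq]
        · intro t' _ ht'
          simp [Matrix.blockDiagonal'_apply_eq, Matrix.one_apply_ne ht']
        · simp
      · intro κ' _ hκ'
        refine Finset.sum_eq_zero fun y _ => ?_
        rw [Matrix.blockDiagonal'_apply_ne _ _ _ hκ', mul_zero]
      · simp
    rw [hL, hR]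
    simp only [f, Matrix.mulVec_mulVec, hφ, Matrix.sum_mulVec, Matrix.smul_mulVec,
      Finset.sum_apply, Pi.smul_apply, smul_eq_mul]
    exact Finset.sum_congr rfl fun s' _ => mul_comm _ _
  rcases Nat.eq_zero_or_pos r with hr | hr
  · subst hr
    exact ⟨v, e, 1, Matrix.det_one, fun a => Subsingleton.elim _ _⟩
  obtain ⟨c, hc⟩ := IsAlgClosed.exists_pow_nat_eq (g₀.det)⁻¹ hr
  have h1 : (c • g₀).det = 1 := by
    rw [Matrix.det_smul, Fintype.card_fin, hc, inv_mul_cancel₀ hdet]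
  refine ⟨v, e, c • g₀, h1, fun a => ?_⟩
  have h2 : (c • g₀) * KA e a = φ a * (c • g₀) := by
    rw [Matrix.smul_mul, Matrix.mul_smul, hXg]
  rw [h2, Matrix.mul_assoc, Matrix.mul_adjugate, h1, one_smul, Matrix.mul_one]

end Vale.Agent.P002
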