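import Vale.Agent.P002T.K

namespace Vale.Agent.P002

open Matrix

theorem Wedd_inv {r : ℕ} {s : Set (Matrix (Fin r) (Fin r) ℂ)} {W : Submodule ℂ (Fin r → ℂ)}
    (hW : ∀ g ∈ s, ∀ v ∈ W, g *ᵥ v ∈ W) {a : Matrix (Fin r) (Fin r) ℂ}
    (ha : a ∈ Algebra.adjoin ℂ s) : ∀ v ∈ W, a *ᵥ v ∈ W := by
  induction ha using Algebra.adjoin_induction with
  | mem x hx => exact hW x hx
  | algebraMap c =>
    intro v hv
    rw [Algebra.algebraMap_eq_smul_one, smul_mulVec, one_mulVec]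
    exact W.smul_mem c hv
  | add x y _ _ hx hy =>
    intro v hv
    rw [add_mulVec]
    exact W.add_mem (hx v hv) (hy v hv)
  | mul x y _ _ hx hy =>
    intro v hv
    rw [← mulVec_mulVec]
    exact hx _ (hy v hv)

theorem Wedd_ss {r : ℕ} {s : Set (Matrix (Fin r) (Fin r) ℂ)}
    (h : ∀ W : Submodule ℂ (Fin r → ℂ), (∀ g ∈ s, ∀ v ∈ W, g *ᵥ v ∈ W) →
      ∃ W' : Submodule ℂ (Fin r → ℂ), (∀ g ∈ s, ∀ v ∈ W', g *ᵥ v ∈ W') ∧ IsCompl W W') :
    IsSemisimpleModule (Algebra.adjoin ℂ s) (Fin r → ℂ) := by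
  rw [isSemisimpleModule_iff]
  refine ⟨fun U => ?_⟩
  have hs : ∀ (a : Algebra.adjoin ℂ s) (v : Fin r → ℂ), a • v = a.1 *ᵥ v := fun _ _ => rfl
  let W : Submodule ℂ (Fin r → ℂ) :=
    { carrier := U
      add_mem' := fun ha hb => U.add_mem ha hb
      zero_mem' := U.zero_mem
      smul_mem' := fun c v hv => by
        have h1 := U.smul_mem (algebraMap ℂ (Algebra.adjoin ℂ s) c) hv
        rw [hs, Subalgebra.coe_algebraMap, Algebra.algebraMap_eq_smul_one, smul_mulVec,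
          one_mulVec] at h1
        exact h1 }
  obtain ⟨W', hW', hc⟩ := h W fun g hg v hv =>
    U.smul_mem (⟨g, Algebra.subset_adjoin hg⟩ : Algebra.adjoin ℂ s) hv
  let U' : Submodule (Algebra.adjoin ℂ s) (Fin r → ℂ) :=
    { carrier := W'
      add_mem' := fun ha hb => W'.add_mem ha hb
      zero_mem' := W'.zero_mem
      smul_mem' := fun a v hv => Wedd_inv hW' a.2 v hv }
  refine ⟨U', ?_, ?_⟩
  · rw [Submodule.disjoint_def]
    intro x hx hx'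
    exact Submodule.disjoint_def.1 hc.disjoint x hx hx'
  · rw [codisjoint_iff, Submodule.eq_top_iff']
    intro x
    have h1 : x ∈ W ⊔ W' := by
      rw [hc.sup_eq_top]
      exact Submodule.mem_top
    obtain ⟨y, hy, z, hz, hyz⟩ := Submodule.mem_sup.1 h1
    exact Submodule.mem_sup.2 ⟨y, hy, z, hz, hyz⟩

theorem Wedd_ring {r : ℕ} {s : Set (Matrix (Fin r) (Fin r) ℂ)}
    (h : IsSemisimpleModule (Algebra.adjoin ℂ s) (Fin r → ℂ)) :
    IsSemisimpleRing (Algebra.adjoin ℂ s) := by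
  have : IsArtinianRing (Algebra.adjoin ℂ s) := IsArtinianRing.of_finite ℂ _
  rw [IsArtinianRing.isSemisimpleRing_iff_jacobson, eq_bot_iff]
  intro a ha
  have h1 := IsSemisimpleModule.jacobson_le_annihilator (Algebra.adjoin ℂ s) (Fin r → ℂ) ha
  rw [Module.mem_annihilator] at h1
  rw [Ideal.mem_bot]
  apply Subtype.ext
  ext i j
  have h2 : a.1 *ᵥ Pi.single j 1 = 0 := h1 (Pi.single j 1)
  have h3 := congrFun h2 i
  simpa using h3

theorem wedder {Γ : Type} [Group Γ] {r : ℕ} (ρ : Γ →* SpecialLinearGroup (Fin r) ℂ)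
    (hρ : Semisimple ρ) : ∃ (n : ℕ) (u : Fin n → ℕ)
      (φ : (∀ κ : Fin n, Matrix (Fin (u κ)) (Fin (u κ)) ℂ) →ₐ[ℂ] Matrix (Fin r) (Fin r) ℂ),
      (∀ κ, 0 < u κ) ∧ (∀ g, ∃ a, (ρ g).1 = φ a) ∧
      ∀ M : Matrix (Fin r) (Fin r) ℂ, (∀ g, M * (ρ g).1 = (ρ g).1 * M) →
        ∀ a, M * φ a = φ a * M := by
  have h1 : IsSemisimpleRing (Algebra.adjoin ℂ (Set.range fun g => (ρ g).1)) := by
    refine Wedd_ring (Wedd_ss fun W hW => ?_)
    obtain ⟨W', h2, h3⟩ := hρ W fun g => hW _ ⟨g, rfl⟩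
    refine ⟨W', ?_, h3⟩
    rintro _ ⟨g, rfl⟩
    exact h2 g
  obtain ⟨n, u, hu, ⟨e⟩⟩ := IsSemisimpleRing.exists_algEquiv_pi_matrix_of_isAlgClosed ℂ
    (Algebra.adjoin ℂ (Set.range fun g => (ρ g).1))
  refine ⟨n, u, (Subalgebra.val _).comp e.symm.toAlgHom, fun κ => Nat.pos_of_ne_zero (hu κ).out,
    fun g => ⟨e ⟨(ρ g).1, Algebra.subset_adjoin ⟨g, rfl⟩⟩, by simp⟩, fun M hM a => ?_⟩
  have h2 : Commute M (e.symm a).1 :=
    Algebra.commute_of_mem_adjoin_of_forall_mem_commute (e.symm a).2 (by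
      rintro _ ⟨g, rfl⟩
      exact hM g)
  exact h2.eq

end Vale.Agent.P002
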