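import Vale.Agent.P002T.Defs
import Vale.Agent.P002T.Cliff
import Vale.Agent.P002T.Wedd
import Vale.Agent.P002T.Std
import Vale.Agent.P002T.Comm
import Vale.Agent.P002T.DKA
import Vale.Agent.P002.Reg
import Vale.Agent.P002.PiF

namespace Vale.Agent.P002

open Matrix

theorem exists_sub {r : ℕ} (O : Subring ℂ) : ∃ Hs : Subgroup (SpecialLinearGroup (Fin r) ℂ),
    ∀ A, A ∈ Hs ↔ ∀ i j, A.1 i j ∈ O := by
  refine ⟨{ carrier := {A | ∀ i j, A.1 i j ∈ O}
            mul_mem' := fun {A B} hA hB => ?_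
            one_mem' := fun i j => ?_
            inv_mem' := fun {A} hA => ?_ }, fun _ => Iff.rfl⟩
  · exact RegMR.mul (S := O.comap (Pi.evalRingHom (fun _ : Unit => ℂ) ()))
      (A := fun _ => A.1) (B := fun _ => B.1) hA hB
  · show (1 : Matrix (Fin r) (Fin r) ℂ) i j ∈ O
    rw [Matrix.one_apply]
    split_ifs
    · exact O.one_mem
    · exact O.zero_mem
  · exact RegMR.adj (S := O.comap (Pi.evalRingHom (fun _ : Unit => ℂ) ()))
      (A := fun _ => A.1) hA

theorem lift_mem {α G : Type} [Group G] (f : α → G) (Hs : Subgroup G) (h : ∀ i, f i ∈ Hs)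
    (x : FreeGroup α) : FreeGroup.lift f x ∈ Hs := by
  have h1 : (FreeGroup.lift f).range ≤ Hs := FreeGroup.range_lift_le (by
    rintro _ ⟨i, rfl⟩
    exact h i)
  exact h1 ⟨x, rfl⟩

theorem lift_comm {α β G : Type} [Group G] (f : α → G) (g : β → G)
    (h : ∀ i j, Commute (f i) (g j)) (x : FreeGroup α) (y : FreeGroup β) :
    Commute (FreeGroup.lift f x) (FreeGroup.lift g y) := by
  have h1 : ∀ i, Commute (f i) (FreeGroup.lift g y) := by
    intro i
    have := lift_mem g (Subgroup.centralizer {f i}) (fun j => by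
      rw [Subgroup.mem_centralizer_iff]
      rintro _ rfl
      exact h i j) y
    exact Subgroup.mem_centralizer_iff.1 this _ rfl
  have := lift_mem f (Subgroup.centralizer {FreeGroup.lift g y}) (fun i => by
    rw [Subgroup.mem_centralizer_iff]
    rintro _ rfl
    exact (h1 i).symm) x
  exact (Subgroup.mem_centralizer_iff.1 this _ rfl).symm

theorem repT {a b r : ℕ} (O : Subring ℂ) (M : Fin a ⊕ Fin b → Matrix (Fin r) (Fin r) ℂ)
    (hd : ∀ g, (M g).det = 1) (hO : ∀ g i j, M g i j ∈ O)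
    (hc : ∀ i j, M (Sum.inl i) * M (Sum.inr j) = M (Sum.inr j) * M (Sum.inl i)) :
    ∃ ρ : FreeGroup (Fin a) × FreeGroup (Fin b) →* SpecialLinearGroup (Fin r) ℂ,
      (∀ g, (ρ (gen g)).1 = M g) ∧ ∀ γ i j, (ρ γ).1 i j ∈ O := by
  obtain ⟨Hs, hHs⟩ := exists_sub (r := r) O
  let f : Fin a ⊕ Fin b → SpecialLinearGroup (Fin r) ℂ := fun g => ⟨M g, hd g⟩
  refine ⟨MonoidHom.noncommCoprod (FreeGroup.lift fun i => f (Sum.inl i))
    (FreeGroup.lift fun j => f (Sum.inr j))
    (lift_comm _ _ fun i j => Subtype.ext (hc i j)), ?_, ?_⟩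
  · rintro (i | j)
    · rw [MonoidHom.noncommCoprod_apply]
      simp only [gen, map_one, mul_one, FreeGroup.lift_apply_of]
      rfl
    · rw [MonoidHom.noncommCoprod_apply]
      simp only [gen, map_one, one_mul, FreeGroup.lift_apply_of]
      rfl
  · intro γ
    rw [← hHs, MonoidHom.noncommCoprod_apply]
    exact Hs.mul_mem (lift_mem _ Hs (fun i => (hHs _).2 (hO _)) _)
      (lift_mem _ Hs (fun j => (hHs _).2 (hO _)) _)

theorem regT {ι : Type} {r : ℕ} (F : MvPolynomial (ι × Fin r × Fin r) ℂ) :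
    (fun G : Option ι → Fin r × Fin r → ℂ => MvPolynomial.eval (fun y =>
      (Mx (G none) * Mx (G (some y.1)) * (Mx (G none)).adjugate) y.2.1 y.2.2) F) ∈
      PF2 (Option ι) (Fin r × Fin r) := by
  have hM : ∀ o, RegMR (PF2 (Option ι) (Fin r × Fin r)).toSubring fun x => Mx (x o) :=
    fun o i j => Algebra.subset_adjoin ⟨(o, (i, j)), rfl⟩
  induction F using MvPolynomial.induction_on with
  | C a =>
    simp only [MvPolynomial.eval_C]
    exact (PF2 _ _).algebraMap_mem a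
  | add F F' h h' =>
    simp only [map_add]
    exact (PF2 _ _).add_mem h h'
  | mul_X F y h =>
    simp only [map_mul, MvPolynomial.eval_X]
    exact (PF2 _ _).mul_mem h ((((hM none).mul (hM (some y.1))).mul (hM none).adj) y.2.1 y.2.2)

theorem paramT {a b r : ℕ}
    (ρ : FreeGroup (Fin a) × FreeGroup (Fin b) →* SpecialLinearGroup (Fin r) ℂ)
    (hρ : Semisimple ρ) : ∃ (n : ℕ) (u v : Fin n → ℕ)
      (e : (Σ κ, Fin (u κ) × Fin (v κ)) ≃ Fin r) (P : Matrix (Fin r) (Fin r) ℂ)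
      (Y : Fin a ⊕ Fin b → Matrix (Fin r) (Fin r) ℂ), P.det = 1 ∧ (∀ g, (Y g).det = 1) ∧
      (∀ g, (ρ (gen g)).1 = P * Y g * P.adjugate) ∧ (∀ i, ∃ x, Y (Sum.inl i) = KA e x) ∧
      ∀ j, ∃ x, Y (Sum.inr j) = KB e x := by
  obtain ⟨n, u, φ, hu, hg, hcomm⟩ := wedder _ (clifford ρ hρ)
  obtain ⟨v, e, P, hP, hφ⟩ := stdform hu φ
  have h1 : P * P.adjugate = 1 := by rw [Matrix.mul_adjugate, hP, one_smul]
  have h2 : P.adjugate * P = 1 := by rw [Matrix.adjugate_mul, hP, one_smul]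
  have h3 : P.adjugate.det = 1 := by
    have := congrArg Matrix.det h1
    rwa [det_mul, hP, one_mul, det_one] at this
  have h4 : ∀ A : Matrix (Fin r) (Fin r) ℂ, P.adjugate * (P * A) = A := fun A => by
    rw [← Matrix.mul_assoc, h2, Matrix.one_mul]
  have h5 : ∀ A : Matrix (Fin r) (Fin r) ℂ, P * (P.adjugate * A) = A := fun A => by
    rw [← Matrix.mul_assoc, h1, Matrix.one_mul]
  refine ⟨n, u, v, e, P, fun g => P.adjugate * (ρ (gen g)).1 * P, hP, fun g => ?_, fun g => ?_,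
    fun i => ?_, fun j => ?_⟩
  · rw [det_mul, det_mul, h3, hP, (ρ (gen g)).2, one_mul, one_mul]
  · simp only [Matrix.mul_assoc, h5, h1, Matrix.mul_one]
  · obtain ⟨x, hx⟩ := hg (FreeGroup.of i)
    refine ⟨x, ?_⟩
    have hx' : (ρ (gen (Sum.inl i))).1 = φ x := hx
    simp only [hx', hφ, Matrix.mul_assoc, h4, h2, Matrix.mul_one]
  · refine commutant hu e _ fun x => ?_
    have hc := hcomm (ρ (gen (Sum.inr j))).1 (fun g => by
      have : gen (Sum.inr j) * MonoidHom.inl _ _ g = MonoidHom.inl _ _ g * gen (a := a) (Sum.inr j) := by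
        simp [gen]
      have h6 := congrArg (fun γ => (ρ γ).1) this
      simp only [map_mul] at h6
      exact h6) x
    rw [hφ] at hc
    have h7 := congrArg (fun A => P.adjugate * A * P) hc
    simp only [Matrix.mul_assoc, h4, h2, Matrix.mul_one] at h7 ⊢
    exact h7

theorem mainT (a b r : ℕ) : ∃ L : IntermediateField ℚ ℂ, FiniteDimensional ℚ L ∧
    ∀ F : MvPolynomial ((Fin a ⊕ Fin b) × Fin r × Fin r) ℂ,
      (∀ ρ : FreeGroup (Fin a) × FreeGroup (Fin b) →* SpecialLinearGroup (Fin r) ℂ,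
        IntegralIn L ρ → MvPolynomial.eval (fun y => (ρ (gen y.1)).1 y.2.1 y.2.2) F = 0) →
      ∀ ρ : FreeGroup (Fin a) × FreeGroup (Fin b) →* SpecialLinearGroup (Fin r) ℂ,
        Semisimple ρ → MvPolynomial.eval (fun y => (ρ (gen y.1)).1 y.2.1 y.2.2) F = 0 := by
  obtain ⟨L, hL, O, ε, hε, hroot, hO⟩ := field (Nat.factorial_pos r)
  refine ⟨L, hL, fun F hF ρ hρ => ?_⟩
  obtain ⟨n, u, v, e, P, Y, hP, hY, hρY, hA, hB⟩ := paramT ρ hρ
  obtain ⟨e', he'⟩ := KB_eq e
  simp_rw [hρY]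
  refine pi_dense (fun o : Option (Fin a ⊕ Fin b) => o.elim
      {y | Gc (fun _ => ()) (Mx y) ∧ ∀ x, y x ∈ O} fun g => g.elim
        (fun _ => {y | (∃ x, Mx y = KA e x) ∧ (Mx y).det = 1 ∧ ∀ x, y x ∈ O})
        (fun _ => {y | (∃ x, Mx y = KA e' x) ∧ (Mx y).det = 1 ∧ ∀ x, y x ∈ O}))
    (fun o => o.elim (ent P) fun g => ent (Y g)) ?_ (regT F) ?_
  · rintro (_ | i | j)
    · exact sl_dense (fun _ => ()) hε ⟨hP, fun i j h => absurd rfl h⟩
    · obtain ⟨x, hx⟩ := hA i
      have h := dens_KA e hε hroot x (hx ▸ hY (Sum.inl i))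
      rw [← hx] at h
      exact h
    · obtain ⟨x, hx⟩ := hB j
      rw [he'] at hx
      have h := dens_KA e' hε hroot x (hx ▸ hY (Sum.inr j))
      rw [← hx] at h
      exact h
  · intro G hG
    have g0 : Gc (fun _ => ()) (Mx (G none)) ∧ ∀ x, G none x ∈ O := hG none
    have g1 : ∀ i, (∃ x, Mx (G (some (Sum.inl i))) = KA e x) ∧
      (Mx (G (some (Sum.inl i)))).det = 1 ∧ ∀ x, G (some (Sum.inl i)) x ∈ O :=
      fun i => hG (some (Sum.inl i))
    have g2 : ∀ j, (∃ x, Mx (G (some (Sum.inr j))) = KA e' x) ∧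
      (Mx (G (some (Sum.inr j)))).det = 1 ∧ ∀ x, G (some (Sum.inr j)) x ∈ O :=
      fun j => hG (some (Sum.inr j))
    have g3 : ∀ g, (Mx (G (some g))).det = 1 ∧ ∀ x, G (some g) x ∈ O := by
      rintro (i | j)
      · exact (g1 i).2
      · exact (g2 j).2
    have hQ := g0.1.1
    have h1 : Mx (G none) * (Mx (G none)).adjugate = 1 := by
      rw [Matrix.mul_adjugate, hQ, one_smul]
    have h2 : (Mx (G none)).adjugate * Mx (G none) = 1 := by
      rw [Matrix.adjugate_mul, hQ, one_smul]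
    have h3 : (Mx (G none)).adjugate.det = 1 := by
      have := congrArg Matrix.det h1
      rwa [det_mul, hQ, one_mul, det_one] at this
    have h4 : ∀ A : Matrix (Fin r) (Fin r) ℂ, (Mx (G none)).adjugate * (Mx (G none) * A) = A :=
      fun A => by rw [← Matrix.mul_assoc, h2, Matrix.one_mul]
    obtain ⟨ρ', h5, h6⟩ := repT O
      (fun g => Mx (G none) * Mx (G (some g)) * (Mx (G none)).adjugate)
      (fun g => by rw [det_mul, det_mul, hQ, h3, (g3 g).1, one_mul, one_mul])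
      (fun g => (RegMR.mul (S := O.comap (Pi.evalRingHom (fun _ : Unit => ℂ) ()))
        (A := fun _ => Mx (G none) * Mx (G (some g))) (B := fun _ => (Mx (G none)).adjugate)
        (RegMR.mul (A := fun _ => Mx (G none)) (B := fun _ => Mx (G (some g)))
          (fun i j => g0.2 (i, j)) (fun i j => (g3 g).2 (i, j)))
        (RegMR.adj (A := fun _ => Mx (G none)) (fun i j => g0.2 (i, j)))))
      (fun i j => by
        obtain ⟨x, hx⟩ := (g1 i).1
        obtain ⟨y, hy⟩ := (g2 j).1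
        rw [← he'] at hy
        simp only [Matrix.mul_assoc, h4]
        rw [hx, hy, ← Matrix.mul_assoc (KA e x), KA_KB, Matrix.mul_assoc])
    have h := hF ρ' fun g i j => hO _ (h6 g i j)
    simp_rw [h5] at h
    exact h

end Vale.Agent.P002
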